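import Vale.Agent.Lib.P254.LM.Final

/-!
# P254: the simplex is a strict local maximiser of the isotropic constant

`ℝ^n` is modelled as `Fin n → ℝ` with its Lebesgue measure.  The definitions `vol`, `centroid`,
`covMatrix`, `isoConst` are in `Vale.Agent.Lib.P254.Defs` and follow the problem statement.
-/

namespace Vale.Agent.Results.P254.LocalMax

open Vale.Agent.Lib.P254

/-- Let `K` be a compact convex set in `ℝ^n` contained in an `n`-simplex `Δ` and filling all of it
up to the fraction `θ_n = (1/(4n(n+1)(n+2)(n+3)))^n` of its volume.  Then `L_K ≤ L_Δ`, and equality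
forces `K` to be a simplex. -/
theorem result (n : ℕ) (hn : 1 ≤ n) (K : Set (Fin n → ℝ)) (hKc : Convex ℝ K) (hK : IsCompact K)
    (S : Fin (n + 1) → (Fin n → ℝ)) (hS : AffineIndependent ℝ S)
    (hKS : K ⊆ convexHull ℝ (Set.range S))
    (hvol : (1 - (1 / (4 * (n : ℝ) * ((n : ℝ) + 1) * ((n : ℝ) + 2) * ((n : ℝ) + 3))) ^ n)
      * vol (convexHull ℝ (Set.range S)) < vol K) :
    isoConst K ≤ isoConst (convexHull ℝ (Set.range S)) ∧
    (isoConst K = isoConst (convexHull ℝ (Set.range S)) →
      ∃ P : Fin (n + 1) → (Fin n → ℝ), AffineIndependent ℝ P ∧ K = convexHull ℝ (Set.range P)) :=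
  local_max hn K hKc hK S hS hKS hvol

end Vale.Agent.Results.P254.LocalMax
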