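import Vale.Agent.Lib.P254.LM.BanachMazur

/-!
# P254: the strong isotropic constant conjecture in an explicit Banach-Mazur neighbourhood
of the simplex

`ℝ^n` is modelled as `Fin n → ℝ` with its Lebesgue measure.  The definitions `vol`, `centroid`,
`covMatrix`, `isoConst` are in `Vale.Agent.Lib.P254.Defs` and follow the problem statement.
-/

namespace Vale.Agent.Results.P254.LocalMaxBanachMazur

open Vale.Agent.Lib.P254

/-- Let `Δ` be an `n`-simplex, `c` a point and `1 ≤ λ ≤ 1 + θ_n / n`, where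
`θ_n = (1/(4n(n+1)(n+2)(n+3)))^n`.  Every compact convex set `K` with
`Δ ⊆ K ⊆ c + λ (Δ - c)` satisfies `L_K ≤ L_Δ`, and equality forces `K` to be a simplex. -/
theorem result (n : ℕ) (hn : 1 ≤ n) (lam : ℝ) (h1 : 1 ≤ lam)
    (h2 : lam ≤ 1 + (1 / (4 * (n : ℝ) * ((n : ℝ) + 1) * ((n : ℝ) + 2) * ((n : ℝ) + 3))) ^ n
      / (n : ℝ))
    (K : Set (Fin n → ℝ)) (hKc : Convex ℝ K) (hK : IsCompact K)
    (S : Fin (n + 1) → (Fin n → ℝ)) (hS : AffineIndependent ℝ S) (c : Fin n → ℝ)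
    (hSK : convexHull ℝ (Set.range S) ⊆ K)
    (hKS : K ⊆ (fun x => c + lam • (x - c)) '' convexHull ℝ (Set.range S)) :
    isoConst K ≤ isoConst (convexHull ℝ (Set.range S)) ∧
    (isoConst K = isoConst (convexHull ℝ (Set.range S)) →
      ∃ P : Fin (n + 1) → (Fin n → ℝ), AffineIndependent ℝ P ∧ K = convexHull ℝ (Set.range P)) :=
  local_max_bm hn lam h1 h2 K hKc hK S hS c hSK hKS

end Vale.Agent.Results.P254.LocalMaxBanachMazur
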