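import Vale.Agent.Lib.P254.LM.Hausdorff

/-!
# P254: the simplex is a strict local maximiser of the isotropic constant (Hausdorff metric)

`ℝ^n` is modelled as `Fin n → ℝ` with its Lebesgue measure and its sup-norm distance.
The definitions `vol`, `centroid`, `covMatrix`, `isoConst` are in `Vale.Agent.Lib.P254.Defs`
and follow the problem statement.
-/

namespace Vale.Agent.Results.P254.LocalMaxHausdorff

open Vale.Agent.Lib.P254

/-- Every `n`-simplex `Δ` has a Hausdorff neighbourhood in which all nonempty compact convex sets `K`
satisfy `L_K ≤ L_Δ`, with equality only for simplices. -/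
theorem result (n : ℕ) (hn : 1 ≤ n) (S : Fin (n + 1) → (Fin n → ℝ))
    (hS : AffineIndependent ℝ S) :
    ∃ η : ℝ, 0 < η ∧ ∀ K : Set (Fin n → ℝ), Convex ℝ K → IsCompact K → K.Nonempty →
      Metric.hausdorffDist K (convexHull ℝ (Set.range S)) < η →
      isoConst K ≤ isoConst (convexHull ℝ (Set.range S)) ∧
      (isoConst K = isoConst (convexHull ℝ (Set.range S)) →
        ∃ P : Fin (n + 1) → (Fin n → ℝ), AffineIndependent ℝ P ∧
          K = convexHull ℝ (Set.range P)) :=
  local_max_hausdorff hn S hS

end Vale.Agent.Results.P254.LocalMaxHausdorff
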