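import Vale.Agent.Results.P254.FewVertices
import Vale.Agent.Results.P254.LocalMax
import Vale.Agent.Results.P254.LocalMaxBanachMazur
import Vale.Agent.Results.P254.LocalMaxHausdorff

/-!
# P254: the strong isotropic constant conjecture for polytopes with at most `n + 2` vertices and
in explicit neighbourhoods of the simplices

`ℝ^n` is modelled as `Fin n → ℝ` with its Lebesgue measure (and its sup-norm distance in (4)).
The definitions `vol`, `centroid`, `covMatrix`, `isoConst` are in `Vale.Agent.Lib.P254.Defs` and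
follow the problem statement.  In each of the four cases `L_K ≤ L_Δ`, and equality forces `K` to be
a simplex:

(1) `K` is the convex hull of at most `n + 2` points and has nonempty interior;
(2) `K` is a compact convex subset of the simplex `Δ` filling all of it up to the fraction
    `θ_n = (1/(4n(n+1)(n+2)(n+3)))^n` of its volume;
(3) `K` is compact convex with `Δ ⊆ K ⊆ c + λ (Δ - c)`, `1 ≤ λ ≤ 1 + θ_n / n`;
(4) `K` is nonempty compact convex and Hausdorff-close to `Δ`.
-/

namespace Vale.Agent.Results.P254.A_Combined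

open Vale.Agent.Lib.P254

theorem result (n : ℕ) (hn : 1 ≤ n) (S : Fin (n + 1) → (Fin n → ℝ))
    (hS : AffineIndependent ℝ S) :
    (∀ V : Finset (Fin n → ℝ), V.card ≤ n + 2 →
      (interior (convexHull ℝ (V : Set (Fin n → ℝ)))).Nonempty →
      isoConst (convexHull ℝ (V : Set (Fin n → ℝ))) ≤ isoConst (convexHull ℝ (Set.range S)) ∧
      (isoConst (convexHull ℝ (V : Set (Fin n → ℝ))) = isoConst (convexHull ℝ (Set.range S)) →
        ∃ P : Fin (n + 1) → (Fin n → ℝ), AffineIndependent ℝ P ∧
          convexHull ℝ (V : Set (Fin n → ℝ)) = convexHull ℝ (Set.range P))) ∧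
    (∀ K : Set (Fin n → ℝ), Convex ℝ K → IsCompact K → K ⊆ convexHull ℝ (Set.range S) →
      (1 - (1 / (4 * (n : ℝ) * ((n : ℝ) + 1) * ((n : ℝ) + 2) * ((n : ℝ) + 3))) ^ n)
        * vol (convexHull ℝ (Set.range S)) < vol K →
      isoConst K ≤ isoConst (convexHull ℝ (Set.range S)) ∧
      (isoConst K = isoConst (convexHull ℝ (Set.range S)) →
        ∃ P : Fin (n + 1) → (Fin n → ℝ), AffineIndependent ℝ P ∧
          K = convexHull ℝ (Set.range P))) ∧
    (∀ lam : ℝ, 1 ≤ lam →
      lam ≤ 1 + (1 / (4 * (n : ℝ) * ((n : ℝ) + 1) * ((n : ℝ) + 2) * ((n : ℝ) + 3))) ^ n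
        / (n : ℝ) →
      ∀ K : Set (Fin n → ℝ), Convex ℝ K → IsCompact K → ∀ c : Fin n → ℝ,
      convexHull ℝ (Set.range S) ⊆ K →
      K ⊆ (fun x => c + lam • (x - c)) '' convexHull ℝ (Set.range S) →
      isoConst K ≤ isoConst (convexHull ℝ (Set.range S)) ∧
      (isoConst K = isoConst (convexHull ℝ (Set.range S)) →
        ∃ P : Fin (n + 1) → (Fin n → ℝ), AffineIndependent ℝ P ∧
          K = convexHull ℝ (Set.range P))) ∧
    (∃ η : ℝ, 0 < η ∧ ∀ K : Set (Fin n → ℝ), Convex ℝ K → IsCompact K → K.Nonempty →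
      Metric.hausdorffDist K (convexHull ℝ (Set.range S)) < η →
      isoConst K ≤ isoConst (convexHull ℝ (Set.range S)) ∧
      (isoConst K = isoConst (convexHull ℝ (Set.range S)) →
        ∃ P : Fin (n + 1) → (Fin n → ℝ), AffineIndependent ℝ P ∧
          K = convexHull ℝ (Set.range P))) :=
  ⟨fun V hcard hint => Vale.Agent.Results.P254.FewVertices.result n hn V hcard hint S hS,
    fun K hKc hK hKS hvol => Vale.Agent.Results.P254.LocalMax.result n hn K hKc hK S hS hKS hvol,
    fun lam h1 h2 K hKc hK c hSK hKS =>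
      Vale.Agent.Results.P254.LocalMaxBanachMazur.result n hn lam h1 h2 K hKc hK S hS c hSK hKS,
    Vale.Agent.Results.P254.LocalMaxHausdorff.result n hn S hS⟩

end Vale.Agent.Results.P254.A_Combined
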