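import Vale.Agent.Lib.P254.Final

/-!
# P254: the strong isotropic constant conjecture for polytopes with at most `n + 2` vertices

`ℝ^n` is modelled as `Fin n → ℝ` with its Lebesgue measure.  The definitions `vol`, `centroid`,
`covMatrix`, `isoConst` are in `Vale.Agent.Lib.P254.Defs` and follow the problem statement.
-/

namespace Vale.Agent.Results.P254.FewVertices

open Vale.Agent.Lib.P254

/-- Let `K` be the convex hull of at most `n + 2` points of `ℝ^n`, with nonempty interior, and let
`Δ` be any `n`-simplex.  Then `L_K ≤ L_Δ`, and equality forces `K` to be a simplex. -/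
theorem result (n : ℕ) (hn : 1 ≤ n) (V : Finset (Fin n → ℝ)) (hcard : V.card ≤ n + 2)
    (hint : (interior (convexHull ℝ (V : Set (Fin n → ℝ)))).Nonempty)
    (S : Fin (n + 1) → (Fin n → ℝ)) (hS : AffineIndependent ℝ S) :
    isoConst (convexHull ℝ (V : Set (Fin n → ℝ))) ≤ isoConst (convexHull ℝ (Set.range S)) ∧
    (isoConst (convexHull ℝ (V : Set (Fin n → ℝ))) = isoConst (convexHull ℝ (Set.range S)) →
      ∃ P : Fin (n + 1) → (Fin n → ℝ), AffineIndependent ℝ P ∧
        convexHull ℝ (V : Set (Fin n → ℝ)) = convexHull ℝ (Set.range P)) :=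
  few_vertices hn V hcard hint S hS

end Vale.Agent.Results.P254.FewVertices
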